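import Vale.Agent.Lib.P184.Cat0

open Vale.Agent.Lib.P184

/-- Let a group `G` act by isometries on a CAT(0) space `X` (in the form of the Bruhat-Tits
inequality), with no other condition on the action. If the displacement of `g₀` attains a positive
minimum, then every idempotent matrix over `ℓ¹(G)` has zero Hattori-Stallings coefficient at the
conjugacy class of `g₀`. -/
theorem Vale.Agent.Results.P184.HyperbolicIsometry.result
    {G : Type*} [Group G] {X : Type*} [MetricSpace X] [MulAction G X] [IsIsometricSMul G X]
    (hX : IsCATZero X) {q : ℕ} {e : Fin q → Fin q → G → ℂ} (he : IsL1Idempotent e) {g₀ : G} (x₀ : X)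
    (hmin : ∀ x : X, dist x₀ (g₀ • x₀) ≤ dist x (g₀ • x)) (hpos : 0 < dist x₀ (g₀ • x₀)) :
    hsCoeff e g₀ = 0 :=
  hsCoeff_eq_zero_of_hyperbolic hX he x₀ hmin hpos
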