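import Vale.Agent.Lib.P184.Linear

open Vale.Agent.Lib.P184 Matrix

/-- Let `ρ : G → GL_n(K)` be a homomorphism to the general linear group over a field `K` with an
absolute value `v`. If `ρ g₀` has an eigenvector in `K^n` whose eigenvalue `μ` has `v μ ≠ 1`, then
every idempotent matrix over `ℓ¹(G)` has zero Hattori-Stallings coefficient at the conjugacy class
of `g₀`. -/
theorem Vale.Agent.Results.P184.LinearEigenvalue.result
    {G : Type*} [Group G] {K : Type*} [Field K] (v : AbsoluteValue K ℝ) {n : ℕ}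
    (ρ : G →* GL (Fin n) K) {q : ℕ} {e : Fin q → Fin q → G → ℂ} (he : IsL1Idempotent e) {g₀ : G}
    {μ : K} {x : Fin n → K} (hx : x ≠ 0)
    (hxμ : ((ρ g₀ : GL (Fin n) K) : Matrix (Fin n) (Fin n) K).mulVec x = μ • x) (hμ : v μ ≠ 1) :
    hsCoeff e g₀ = 0 :=
  hsCoeff_eq_zero_of_eigenvalue v ρ he hx hxμ hμ
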