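import Vale.Agent.Lib.P184.Main

open Vale.Agent.Lib.P184

/-- Let `G` be a group and `g₀ ∈ G`. If some length function `ℓ` on `G` dominates an additive map
`φ` from the centralizer of `g₀` to `ℝ` with `φ g₀ ≠ 0`, then every idempotent matrix over `ℓ¹(G)`
has zero Hattori-Stallings coefficient at the conjugacy class of `g₀`. -/
theorem Vale.Agent.Results.P184.LipschitzCentralizer.result
    {G : Type*} [Group G] {q : ℕ} {e : Fin q → Fin q → G → ℂ} (he : IsL1Idempotent e) {g₀ : G}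
    (ℓ : G → ℝ) (hℓ0 : ∀ g, 0 ≤ ℓ g) (hℓmul : ∀ g h, ℓ (g * h) ≤ ℓ g + ℓ h)
    (hℓinv : ∀ g, ℓ g⁻¹ = ℓ g)
    (φ : Subgroup.centralizer ({g₀} : Set G) → ℝ) (hφmul : ∀ z z', φ (z * z') = φ z + φ z')
    (hφle : ∀ z, |φ z| ≤ ℓ (z : G))
    (hφ0 : φ ⟨g₀, by rw [Subgroup.mem_centralizer_singleton_iff]⟩ ≠ 0) :
    hsCoeff e g₀ = 0 :=
  hsCoeff_eq_zero he ℓ hℓ0 hℓmul hℓinv φ hφmul hφle hφ0
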