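import Vale.Agent.Results.P184.CatZeroGroups
import Vale.Agent.Results.P184.HyperbolicIsometry
import Vale.Agent.Results.P184.LinearEigenvalue
import Vale.Agent.Results.P184.LipschitzCentralizer

open Vale.Agent.Lib.P184 Matrix

universe u v

/-- The `ℓ¹` Bass conjecture for proper cocompact actions on CAT(0) spaces, and the vanishing of
the Hattori-Stallings coefficients at hyperbolic isometries, at eigenvalues of absolute value
different from one, and at classes with a Lipschitz additive map on the centralizer. -/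
theorem Vale.Agent.Results.P184.A0Conj.result :
    (∀ {G : Type u} [Group G] {X : Type v} [MetricSpace X] [Nonempty X] [MulAction G X]
      [IsIsometricSMul G X], IsCATZero X →
      (∀ (x : X) (r : ℝ), {g : G | dist x (g • x) ≤ r}.Finite) →
      ∀ {K : Set X}, IsCompact K → (∀ x : X, ∃ g : G, g • x ∈ K) →
      ∀ {q : ℕ} {e : Fin q → Fin q → G → ℂ}, IsL1Idempotent e →
      ∃ F : Set (ConjClasses G), F.Finite ∧ (∀ C ∈ F, ∃ g, ConjClasses.mk g = C ∧ IsOfFinOrder g) ∧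
        ∀ g : G, ConjClasses.mk g ∉ F → hsCoeff e g = 0) ∧
    (∀ {G : Type u} [Group G] {X : Type v} [MetricSpace X] [MulAction G X] [IsIsometricSMul G X],
      IsCATZero X → ∀ {q : ℕ} {e : Fin q → Fin q → G → ℂ}, IsL1Idempotent e → ∀ {g₀ : G} (x₀ : X),
      (∀ x : X, dist x₀ (g₀ • x₀) ≤ dist x (g₀ • x)) → 0 < dist x₀ (g₀ • x₀) →
      hsCoeff e g₀ = 0) ∧
    (∀ {G : Type u} [Group G] {K : Type v} [Field K] (v : AbsoluteValue K ℝ) {n : ℕ}
      (ρ : G →* GL (Fin n) K) {q : ℕ} {e : Fin q → Fin q → G → ℂ}, IsL1Idempotent e → ∀ {g₀ : G}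
      {μ : K} {x : Fin n → K}, x ≠ 0 →
      ((ρ g₀ : GL (Fin n) K) : Matrix (Fin n) (Fin n) K).mulVec x = μ • x → v μ ≠ 1 →
      hsCoeff e g₀ = 0) ∧
    (∀ {G : Type u} [Group G] {q : ℕ} {e : Fin q → Fin q → G → ℂ}, IsL1Idempotent e → ∀ {g₀ : G}
      (ℓ : G → ℝ), (∀ g, 0 ≤ ℓ g) → (∀ g h, ℓ (g * h) ≤ ℓ g + ℓ h) → (∀ g, ℓ g⁻¹ = ℓ g) →
      ∀ (φ : Subgroup.centralizer ({g₀} : Set G) → ℝ), (∀ z z', φ (z * z') = φ z + φ z') →
      (∀ z, |φ z| ≤ ℓ (z : G)) →
      φ ⟨g₀, by rw [Subgroup.mem_centralizer_singleton_iff]⟩ ≠ 0 →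
      hsCoeff e g₀ = 0) :=
  ⟨@Vale.Agent.Results.P184.CatZeroGroups.result,
    @Vale.Agent.Results.P184.HyperbolicIsometry.result,
    @Vale.Agent.Results.P184.LinearEigenvalue.result,
    @Vale.Agent.Results.P184.LipschitzCentralizer.result⟩
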