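import Vale.Agent.Lib.P184.Cat0Cocompact

open Vale.Agent.Lib.P184

/-- If a group `G` acts by isometries, properly and cocompactly, on a CAT(0) space `X` (in the form
of the Bruhat-Tits inequality), then every idempotent matrix over `ℓ¹(G)` has its Hattori-Stallings
trace supported on finitely many conjugacy classes of elements of finite order. -/
theorem Vale.Agent.Results.P184.CatZeroGroups.result
    {G : Type*} [Group G] {X : Type*} [MetricSpace X] [Nonempty X] [MulAction G X]
    [IsIsometricSMul G X] (hX : IsCATZero X)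
    (hproper : ∀ (x : X) (r : ℝ), {g : G | dist x (g • x) ≤ r}.Finite)
    {K : Set X} (hK : IsCompact K) (hcocpt : ∀ x : X, ∃ g : G, g • x ∈ K)
    {q : ℕ} {e : Fin q → Fin q → G → ℂ} (he : IsL1Idempotent e) :
    ∃ F : Set (ConjClasses G), F.Finite ∧ (∀ C ∈ F, ∃ g, ConjClasses.mk g = C ∧ IsOfFinOrder g) ∧
      ∀ g : G, ConjClasses.mk g ∉ F → hsCoeff e g = 0 :=
  bass_of_proper_cocompact hX hproper hK hcocpt he
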